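import Mathlib

/-!
# P243: planar areas of orthogonal projections, linear images
-/

namespace Vale.Agent.Bang

open MeasureTheory Set
open scoped ENNReal RealInnerProductSpace

/-- Euclidean three-space -/
abbrev E3 := EuclideanSpace ℝ (Fin 3)

/-- the Euclidean plane -/
abbrev E2 := EuclideanSpace ℝ (Fin 2)

/-- the orthogonal projection of `x` to the plane `u^⊥` -/
noncomputable def proj (u x : E3) : E3 := (ℝ ∙ u)ᗮ.starProjection x

theorem proj_eq (u x : E3) (hu : ‖u‖ = 1) : proj u x = x - ⟪u, x⟫ • u := by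
  unfold proj
  rw [Submodule.starProjection_orthogonal_val, Submodule.starProjection_unit_singleton ℝ hu]

theorem inner_proj (u x : E3) (hu : ‖u‖ = 1) : ⟪u, proj u x⟫ = 0 := by
  rw [proj_eq u x hu, inner_sub_right, inner_smul_right, real_inner_self_eq_norm_sq, hu]
  ring

/-- the area of the image of a plane set under an injective linear map -/
theorem area_image_linear (ψ : E2 →ₗ[ℝ] E3) (hψ : Function.Injective ψ) :
    ∃ c : ℝ≥0∞, c ≠ 0 ∧ c ≠ ∞ ∧ ∀ S : Set E2, μHE[2] (ψ '' S) = c * volume S := by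
  have hfr : Module.finrank ℝ (LinearMap.range ψ) = 2 := by
    rw [LinearMap.finrank_range_of_inj hψ]
    simp
  let b : OrthonormalBasis (Fin 2) ℝ (LinearMap.range ψ) :=
    (stdOrthonormalBasis ℝ (LinearMap.range ψ)).reindex (finCongr hfr)
  let M : E2 →ₗ[ℝ] E2 := b.repr.toLinearEquiv.toLinearMap ∘ₗ ψ.rangeRestrict
  have hMinj : Function.Injective M := by
    intro x y hxy
    have h1 : b.repr (ψ.rangeRestrict x) = b.repr (ψ.rangeRestrict y) := hxy
    have h2 := b.repr.injective h1
    apply hψ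
    have h3 := congrArg Subtype.val h2
    simpa using h3
  have hdet : LinearMap.det M ≠ 0 := by
    intro h0
    have h1 := LinearMap.bot_lt_ker_of_det_eq_zero h0
    rw [LinearMap.ker_eq_bot.mpr hMinj] at h1
    exact lt_irrefl _ h1
  refine ⟨ENNReal.ofReal |LinearMap.det M|, ?_, ENNReal.ofReal_ne_top, ?_⟩
  · rw [Ne, ENNReal.ofReal_eq_zero, not_le]
    exact abs_pos.mpr hdet
  · intro S
    have hiso : Isometry (fun w : E2 => ((b.repr.symm w : LinearMap.range ψ) : E3)) :=
      isometry_subtype_coe.comp b.repr.symm.isometry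
    have himg : ψ '' S = (fun w : E2 => ((b.repr.symm w : LinearMap.range ψ) : E3)) '' (M '' S) := by
      rw [Set.image_image]
      apply Set.image_congr
      intro x _
      change ψ x = ((b.repr.symm (b.repr (ψ.rangeRestrict x)) : LinearMap.range ψ) : E3)
      rw [LinearIsometryEquiv.symm_apply_apply]
      rfl
    rw [himg, hiso.euclideanHausdorffMeasure_image, EuclideanSpace.euclideanHausdorffMeasure_eq_volume,
      Measure.addHaar_image_linearMap]

/-- areas of orthogonal projections along `u` and a linear parametrisation of the plane of lines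
parallel to `u` -/
theorem exists_param (L : E3 →ₗ[ℝ] E2) (hL : Function.Surjective L) (u : E3) (hu : ‖u‖ = 1)
    (hker : ∀ x, L x = 0 ↔ ∃ t : ℝ, x = t • u) :
    ∃ ψ : E2 →ₗ[ℝ] E3, Function.Injective ψ ∧ ∀ x, proj u x = ψ (L x) := by
  obtain ⟨g, hg⟩ := L.exists_rightInverse_of_surjective (LinearMap.range_eq_top.mpr hL)
  have hg' : ∀ a, L (g a) = a := fun a => by
    have := congrArg (fun f => f a) hg
    simpa using this
  let ψ : E2 →ₗ[ℝ] E3 := ((ℝ ∙ u)ᗮ.starProjection : E3 →L[ℝ] E3).toLinearMap ∘ₗ g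
  have hψ : ∀ x, proj u x = ψ (L x) := by
    intro x
    change proj u x = proj u (g (L x))
    have h1 : L (x - g (L x)) = 0 := by rw [map_sub, hg', sub_self]
    obtain ⟨t, ht⟩ := (hker _).mp h1
    have h2 : x = g (L x) + t • u := by rw [← ht]; abel
    conv_lhs => rw [h2]
    rw [proj_eq _ _ hu, proj_eq _ _ hu, inner_add_right, inner_smul_right,
      real_inner_self_eq_norm_sq, hu, add_smul]
    norm_num
  refine ⟨ψ, ?_, hψ⟩
  rw [injective_iff_map_eq_zero]
  intro a ha
  have h1 : proj u (g a) = 0 := ha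
  rw [proj_eq _ _ hu, sub_eq_zero] at h1
  have h2 : L (g a) = 0 := (hker _).mpr ⟨_, h1⟩
  rw [hg'] at h2
  exact h2

/-- the standard triangle -/
def Dl : Set E2 := {w | 0 ≤ w 0 ∧ 0 ≤ w 1 ∧ w 0 + w 1 ≤ 1}

/-- the triangle with vertices `p`, `p + q`, `p + r` -/
def tri (p q r : E2) : Set E2 := (fun w : E2 => p + (w 0 • q + w 1 • r)) '' Dl

theorem isCompact_Dl : IsCompact Dl := by
  apply Metric.isCompact_of_isClosed_isBounded
  · have h0 : Continuous (fun w : E2 => w 0) := by fun_prop
    have h1 : Continuous (fun w : E2 => w 1) := by fun_prop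
    exact (isClosed_le continuous_const h0).inter ((isClosed_le continuous_const h1).inter
      (isClosed_le (h0.add h1) continuous_const))
  · rw [Metric.isBounded_iff_subset_closedBall 0]
    refine ⟨2, ?_⟩
    rintro w ⟨h0, h1, h2⟩
    rw [mem_closedBall_zero_iff, EuclideanSpace.norm_eq, Real.sqrt_le_left (by norm_num)]
    simp only [Fin.sum_univ_two, Real.norm_eq_abs, sq_abs]
    nlinarith

theorem isCompact_tri (p q r : E2) : IsCompact (tri p q r) := by
  apply isCompact_Dl.image
  fun_prop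

theorem volume_Dl_ne_top : volume Dl ≠ ∞ := isCompact_Dl.measure_lt_top.ne

theorem volume_Dl_ne_zero : volume Dl ≠ 0 := by
  have h0 : Continuous (fun w : E2 => w 0) := by fun_prop
  have h1 : Continuous (fun w : E2 => w 1) := by fun_prop
  have hopen : IsOpen {w : E2 | 0 < w 0 ∧ 0 < w 1 ∧ w 0 + w 1 < 1} :=
    (isOpen_lt continuous_const h0).inter ((isOpen_lt continuous_const h1).inter
      (isOpen_lt (h0.add h1) continuous_const))
  have hne : {w : E2 | 0 < w 0 ∧ 0 < w 1 ∧ w 0 + w 1 < 1}.Nonempty := by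
    refine ⟨!₂[1/4, 1/4], ?_⟩
    simp only [Set.mem_ofPred_eq]
    norm_num
  have hpos := hopen.measure_pos volume hne
  have hsub : {w : E2 | 0 < w 0 ∧ 0 < w 1 ∧ w 0 + w 1 < 1} ⊆ Dl := by
    rintro w ⟨a, b, c⟩
    exact ⟨a.le, b.le, c.le⟩
  exact (hpos.trans_le (measure_mono hsub)).ne'

theorem volume_tri (p q r : E2) :
    volume (tri p q r) = ENNReal.ofReal |q 0 * r 1 - r 0 * q 1| * volume Dl := by
  let A : E2 →ₗ[ℝ] E2 := Matrix.toEuclideanLin !![q 0, r 0; q 1, r 1]
  have hA : ∀ w : E2, A w = w 0 • q + w 1 • r := by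
    intro w
    ext i
    fin_cases i
    · simp [A, Matrix.toLpLin_apply, dotProduct, Fin.sum_univ_two]
      ring
    · simp [A, Matrix.toLpLin_apply, dotProduct, Fin.sum_univ_two]
      ring
  have himg : tri p q r = (fun x => p + x) '' (A '' Dl) := by
    unfold tri
    rw [Set.image_image]
    apply Set.image_congr
    intro w _
    rw [hA]
  rw [himg, Set.image_add_left, measure_preimage_add, Measure.addHaar_image_linearMap]
  congr 2
  have hdet : LinearMap.det A = q 0 * r 1 - r 0 * q 1 := by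
    change LinearMap.det (Matrix.toEuclideanLin !![q 0, r 0; q 1, r 1]) = _
    rw [Matrix.toEuclideanLin_eq_toLin_orthonormal, LinearMap.det_toLin, Matrix.det_fin_two_of]
  rw [hdet]

end Vale.Agent.Bang
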