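import Mathlib

/-!
# P243: the covering of a tetrahedron by four cylinders, in barycentric coordinates
-/

namespace Vale.Agent.Bang

/-- membership in the first cylinder; `a, b, c, d` are the barycentric coordinates -/
def Qc (a b c d : ℝ) : Prop :=
  (0 ≤ c ∧ (d - a - 5 * (b + c)) + 23 * c ≤ 0 ∧ 27 * c ≤ 9 * (d - a - 5 * (b + c)) + 26) ∨
  (0 ≤ (d - a - 5 * (b + c)) + 23 * c ∧ (d - a - 5 * (b + c)) + 10 * c ≤ 0 ∧
    0 ≤ 27 * (d - a - 5 * (b + c)) + 36 * c + 65)

theorem coverL (a b c d : ℝ) (ha : 0 ≤ a) (hb : 0 ≤ b) (hc : 0 ≤ c) (hd : 0 ≤ d)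
    (hs : a + b + c + d = 1) (h1 : d - a ≤ 5 * (b - c)) (h2 : 5 * (d - a) ≤ -(b - c)) :
    Qc a b c d ∨ Qc c a d b := by
  unfold Qc
  by_contra hcon
  push Not at hcon
  obtain ⟨⟨h3, h4⟩, ⟨h5, h6⟩⟩ := hcon
  rcases le_or_gt ((d - a - 5 * (b + c)) + 23 * c) 0 with h7 | h7
  · have h8 := h3 hc h7
    rcases le_or_gt ((b - c - 5 * (a + d)) + 23 * d) 0 with h9 | h9
    · have h10 := h5 hd h9
      linarith
    · have h10 := h6 h9.le (by linarith)
      linarith
  · have h8 := h4 h7.le (by linarith)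
    rcases le_or_gt ((b - c - 5 * (a + d)) + 23 * d) 0 with h9 | h9
    · have h10 := h5 hd h9
      linarith
    · have h10 := h6 h9.le (by linarith)
      linarith

theorem cover4 (a b c d : ℝ) (ha : 0 ≤ a) (hb : 0 ≤ b) (hc : 0 ≤ c) (hd : 0 ≤ d)
    (hs : a + b + c + d = 1) :
    Qc a b c d ∨ Qc d c b a ∨ Qc c a d b ∨ Qc b d a c := by
  rcases le_total (d - a) (5 * (b - c)) with h1 | h1
  · rcases le_total (5 * (d - a)) (-(b - c)) with h2 | h2
    · rcases coverL a b c d ha hb hc hd hs h1 h2 with h | h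
      · exact Or.inl h
      · exact Or.inr (Or.inr (Or.inl h))
    · rcases coverL b d a c hb hd ha hc (by linarith) (by linarith) (by linarith) with h | h
      · exact Or.inr (Or.inr (Or.inr h))
      · exact Or.inl h
  · rcases le_total (5 * (d - a)) (-(b - c)) with h2 | h2
    · rcases coverL c a d b hc ha hd hb (by linarith) (by linarith) (by linarith) with h | h
      · exact Or.inr (Or.inr (Or.inl h))
      · exact Or.inr (Or.inl h)
    · rcases coverL d c b a hd hc hb ha (by linarith) (by linarith) (by linarith) with h | h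
      · exact Or.inr (Or.inl h)
      · exact Or.inr (Or.inr (Or.inr h))

end Vale.Agent.Bang
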