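import Vale.Agent.Bang.Area
import Vale.Agent.Bang.Cover

/-!
# P243: one cylinder of the covering of a tetrahedron
-/

namespace Vale.Agent.Bang

open MeasureTheory Set
open scoped ENNReal RealInnerProductSpace

theorem mem_tri (p q r x : E2) (s t : ℝ) (hs : 0 ≤ s) (ht : 0 ≤ t) (hst : s + t ≤ 1)
    (hx : x = p + (s • q + t • r)) : x ∈ tri p q r := by
  refine ⟨!₂[s, t], ?_, ?_⟩
  · exact ⟨by simpa using hs, by simpa using ht, by simpa using hst⟩
  · rw [hx]
    simp

/-- the combination `a V₀ + b V₁ + c V₂ + d V₃` -/
def comb (V : Fin 4 → E3) (a b c d : ℝ) : E3 := a • V 0 + b • V 1 + c • V 2 + d • V 3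

/-- one cylinder: for every tetrahedron `V` there are a unit vector `u` and a compact base `B` in
`u^⊥`, of relative area at most `13/108`, whose cylinder contains all points with barycentric
coordinates in `Qc` -/
theorem one_cylinder (V : Fin 4 → E3) (hV : AffineIndependent ℝ V) :
    ∃ (u : E3) (B : Set E3), ‖u‖ = 1 ∧ IsCompact B ∧ (∀ b ∈ B, ⟪u, b⟫ = 0) ∧
      μHE[2] B ≠ ∞ ∧
      (μHE[2] B).toReal / (μHE[2] (proj u '' convexHull ℝ (range V))).toReal ≤ 13 / 108 ∧
      ∀ a b c d : ℝ, a + b + c + d = 1 → Qc a b c d →
        ∃ y ∈ B, ∃ t : ℝ, comb V a b c d = y + t • u := by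
  -- the basis of edge vectors at `V 0`
  have hli : LinearIndependent ℝ (fun i : Fin 3 => V i.succ - V 0) := by
    have h1 := (affineIndependent_iff_linearIndependent_vsub ℝ V 0).mp hV
    have h2 : LinearIndependent ℝ (fun i : Fin 3 =>
        (fun i : {x : Fin 4 // x ≠ 0} => (V i -ᵥ V 0 : E3)) ⟨i.succ, Fin.succ_ne_zero i⟩) := by
      apply h1.comp
      intro i j hij
      simpa using hij
    simpa using h2
  let bas : Module.Basis (Fin 3) ℝ E3 :=
    basisOfLinearIndependentOfCardEqFinrank hli (by simp)
  have hbas : ∀ i, bas i = V i.succ - V 0 := fun i => by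
    simp [bas]
  let L : E3 →ₗ[ℝ] E2 :=
    { toFun := fun x => !₂[2 * bas.repr x 2 - 4 * bas.repr x 0 - 4 * bas.repr x 1, bas.repr x 1]
      map_add' := by
        intro x y
        ext i
        fin_cases i <;> simp <;> ring
      map_smul' := by
        intro t x
        ext i
        fin_cases i <;> simp <;> ring }
  have hL0 : ∀ x, L x 0 = 2 * bas.repr x 2 - 4 * bas.repr x 0 - 4 * bas.repr x 1 := fun x => by
    simp [L]
  have hL1 : ∀ x, L x 1 = bas.repr x 1 := fun x => by simp [L]
  -- the direction
  let v : E3 := bas 0 + (2 : ℝ) • bas 2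
  have hv0 : v ≠ 0 := by
    intro h
    have h1 : bas.repr v 0 = 0 := by rw [h]; simp
    simp [v] at h1
  have hvn : 0 < ‖v‖ := norm_pos_iff.mpr hv0
  let u : E3 := (‖v‖)⁻¹ • v
  have hu : ‖u‖ = 1 := by
    simp only [u, norm_smul, norm_inv, norm_norm]
    exact inv_mul_cancel₀ hvn.ne'
  have hker : ∀ x, L x = 0 ↔ ∃ t : ℝ, x = t • u := by
    intro x
    constructor
    · intro h
      have h0 : L x 0 = 0 := by rw [h]; simp
      have h1 : L x 1 = 0 := by rw [h]; simp
      rw [hL0] at h0
      rw [hL1] at h1
      refine ⟨bas.repr x 0 * ‖v‖, ?_⟩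
      have h2 : x = bas.repr x 0 • v := by
        apply bas.repr.injective
        ext i
        fin_cases i
        · simp [v]
        · simp [v, h1]
        · simp [v]
          linarith
      rw [mul_smul]
      simp only [u]
      rw [smul_inv_smul₀ hvn.ne']
      exact h2
    · rintro ⟨t, rfl⟩
      have hv : L v = 0 := by
        ext i
        fin_cases i
        · change L v 0 = 0
          rw [hL0]
          simp [v]
          norm_num
        · change L v 1 = 0
          rw [hL1]
          simp [v]
      simp only [u, map_smul, hv, smul_zero]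
  have hsurj : Function.Surjective L := by
    intro w
    refine ⟨w 1 • bas 1 + ((w 0 + 4 * w 1) / 2) • bas 2, ?_⟩
    ext i
    fin_cases i
    · change L _ 0 = w 0
      rw [hL0]
      simp
      ring
    · change L _ 1 = w 1
      rw [hL1]
      simp
  obtain ⟨ψ, hψinj, hψ⟩ := exists_param L hsurj u hu hker
  obtain ⟨c, hc0, hct, hc⟩ := area_image_linear ψ hψinj
  have hψc : Continuous ψ := ψ.continuous_of_finiteDimensional
  -- the base
  let o : E2 := L (V 0) + !₂[1, 0]
  let q1 : E2 := !₂[-26/9, 0]
  let r1 : E2 := !₂[-23/9, 1/9]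
  let r2 : E2 := !₂[-25/9, 5/18]
  let T : Set E2 := tri o q1 r1 ∪ tri o r1 r2
  have hTc : IsCompact T := (isCompact_tri _ _ _).union (isCompact_tri _ _ _)
  have hTvol : volume T ≤ ENNReal.ofReal (13 / 18) * volume Dl := by
    calc volume T ≤ volume (tri o q1 r1) + volume (tri o r1 r2) := measure_union_le _ _
      _ = ENNReal.ofReal (26 / 81) * volume Dl + ENNReal.ofReal (65 / 162) * volume Dl := by
          rw [volume_tri, volume_tri]
          congr 3
          · simp [q1, r1]
            norm_num
          · simp [r1, r2]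
            rw [abs_of_neg (by norm_num)]
            norm_num
      _ = ENNReal.ofReal (13 / 18) * volume Dl := by
          rw [← add_mul, ← ENNReal.ofReal_add (by norm_num) (by norm_num)]
          norm_num
  -- the projection of the tetrahedron
  set K : Set E3 := convexHull ℝ (range V) with hK
  have hKc : IsCompact K := Set.Finite.isCompact_convexHull ℝ (Set.finite_range V)
  have hKvol : ENNReal.ofReal 6 * volume Dl ≤ volume (L '' K) := by
    have hsub : tri (L (V 0) + !₂[2, 0]) !₂[-6, 0] !₂[-6, 1] ⊆ L '' K := by
      rintro x ⟨w, ⟨hw0, hw1, hw2⟩, rfl⟩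
      refine ⟨(1 - w 0 - w 1) • V 3 + w 0 • V 1 + w 1 • V 2, ?_, ?_⟩
      · have hcv := convex_convexHull ℝ (range V)
        have hm : ∀ i, V i ∈ K := fun i => subset_convexHull ℝ _ (mem_range_self i)
        have h3 := hcv.sum_mem (t := Finset.univ) (w := ![1 - w 0 - w 1, w 0, w 1])
          (z := ![V 3, V 1, V 2]) (by
            intro i _
            fin_cases i
            · simp; linarith
            · simpa using hw0
            · simpa using hw1) (by simp [Fin.sum_univ_three]; ring) (by
            intro i _
            fin_cases i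
            · exact hm 3
            · exact hm 1
            · exact hm 2)
        simpa [Fin.sum_univ_three] using h3
      · have e3 : V 3 = V 0 + bas 2 := by rw [hbas]; simp [Fin.succ]
        have e1 : V 1 = V 0 + bas 0 := by rw [hbas]; simp
        have e2 : V 2 = V 0 + bas 1 := by rw [hbas]; simp [Fin.succ]
        have e4 : (1 - w 0 - w 1) • V 3 + w 0 • V 1 + w 1 • V 2 =
            V 0 + ((1 - w 0 - w 1) • bas 2 + w 0 • bas 0 + w 1 • bas 1) := by
          rw [e3, e1, e2]
          module
        rw [e4, map_add]
        ext i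
        fin_cases i
        · simp [L]
          ring
        · simp [L]
    calc ENNReal.ofReal 6 * volume Dl = volume (tri (L (V 0) + !₂[2, 0]) !₂[-6, 0] !₂[-6, 1]) := by
          rw [volume_tri]
          congr 2
          simp
      _ ≤ volume (L '' K) := measure_mono hsub
  have hLKt : volume (L '' K) ≠ ∞ :=
    (hKc.image L.continuous_of_finiteDimensional).measure_lt_top.ne
  have hprojK : proj u '' K = ψ '' (L '' K) := by
    rw [Set.image_image]
    exact Set.image_congr (fun x _ => hψ x)
  have hκ0 := volume_Dl_ne_zero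
  have hκt := volume_Dl_ne_top
  refine ⟨u, ψ '' T, hu, hTc.image hψc, ?_, ?_, ?_, ?_⟩
  · rintro b ⟨w, _, rfl⟩
    obtain ⟨x, rfl⟩ := hsurj w
    rw [← hψ]
    exact inner_proj u x hu
  · rw [hc]
    exact ENNReal.mul_ne_top hct (hTc.measure_lt_top.ne)
  · rw [hprojK, hc, hc, ENNReal.toReal_mul, ENNReal.toReal_mul]
    have hcpos : 0 < c.toReal := ENNReal.toReal_pos hc0 hct
    have hκpos : 0 < (volume Dl).toReal := ENNReal.toReal_pos hκ0 hκt
    have h1 : (volume T).toReal ≤ 13 / 18 * (volume Dl).toReal := by
      have := ENNReal.toReal_mono (ENNReal.mul_ne_top ENNReal.ofReal_ne_top hκt) hTvol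
      rw [ENNReal.toReal_mul, ENNReal.toReal_ofReal (by norm_num)] at this
      exact this
    have h2 : 6 * (volume Dl).toReal ≤ (volume (L '' K)).toReal := by
      have := ENNReal.toReal_mono hLKt hKvol
      rw [ENNReal.toReal_mul, ENNReal.toReal_ofReal (by norm_num)] at this
      exact this
    rw [mul_div_mul_left _ _ hcpos.ne', div_le_iff₀ (by linarith)]
    linarith
  · intro a b c' d hsum hQ
    have hrep : comb V a b c' d = V 0 + (b • bas 0 + c' • bas 1 + d • bas 2) := by
      have e3 : V 3 = V 0 + bas 2 := by rw [hbas]; simp [Fin.succ]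
      have e1 : V 1 = V 0 + bas 0 := by rw [hbas]; simp
      have e2 : V 2 = V 0 + bas 1 := by rw [hbas]; simp [Fin.succ]
      unfold comb
      have ha : a = 1 - b - c' - d := by linarith
      rw [e3, e1, e2, ha]
      module
    have hLx0 : L (comb V a b c' d) 0 = L (V 0) 0 + (2 * d - 4 * b - 4 * c') := by
      rw [hrep, map_add]
      simp [L]
    have hLx1 : L (comb V a b c' d) 1 = L (V 0) 1 + c' := by
      rw [hrep, map_add]
      simp [L]
    have hmem : L (comb V a b c' d) ∈ T := by
      rcases hQ with ⟨h1, h2, h3⟩ | ⟨h1, h2, h3⟩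
      · left
        -- x = o + s q1 + t r1 : c' = t / 9, (2d-4b-4c'-1) = -26/9 s - 23/9 t
        apply mem_tri o q1 r1 _ (-(9 * (d - a - 5 * (b + c')) + 207 * c') / 26) (9 * c')
          (by linarith) (by linarith) (by linarith)
        ext i
        fin_cases i
        · change L (comb V a b c' d) 0 = _
          rw [hLx0]
          simp [o, q1, r1]
          linarith
        · change L (comb V a b c' d) 1 = _
          rw [hLx1]
          simp [o, q1, r1]
          ring
      · right
        -- s' = -23/9 s - 25/9 t, c' = s/9 + 5/18 t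
        apply mem_tri o r1 r2 _ (-(9 * ((d - a - 5 * (b + c')) + 10 * c')) / 13)
          ((18 * (d - a - 5 * (b + c')) + 414 * c') / 65)
          (by linarith) (by linarith) (by linarith)
        ext i
        fin_cases i
        · change L (comb V a b c' d) 0 = _
          rw [hLx0]
          simp [o, r1, r2]
          linarith
        · change L (comb V a b c' d) 1 = _
          rw [hLx1]
          simp [o, r1, r2]
          linarith
    refine ⟨proj u (comb V a b c' d), ?_, ⟪u, comb V a b c' d⟫, ?_⟩
    · rw [hψ]
      exact mem_image_of_mem _ hmem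
    · rw [proj_eq _ _ hu]
      abel

end Vale.Agent.Bang
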